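import Mathlib

namespace Vale.Agent.Results.P166.A_DiracSpectrum

open Matrix Finset Filter Topology

/-- A spin configuration `σ ∈ {-1,1}^N` (modelled as `Fin N → ℤˣ`) as a real vector. -/
def spin {N : ℕ} (σ : Fin N → ℤˣ) : Fin N → ℝ := fun i => ((σ i : ℤ) : ℝ)

/-- The coupling matrix `J = Uᵀ Λ U` with `Λ = diag(lam)`. -/
def coupling {N : ℕ} (lam : Fin N → ℝ) (U : Matrix (Fin N) (Fin N) ℝ) :
    Matrix (Fin N) (Fin N) ℝ := Uᵀ * Matrix.diagonal lam * U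

/-- The pressure `P_N(β) = (1/N) log [ 2^{-N} ∑_σ exp((β/2) σᵀ J σ) ]`. -/
noncomputable def pressure {N : ℕ} (β : ℝ) (J : Matrix (Fin N) (Fin N) ℝ) : ℝ :=
  (1 / (N : ℝ)) * Real.log ((1 / 2 : ℝ) ^ N *
    ∑ σ : Fin N → ℤˣ, Real.exp (β / 2 * (spin σ ⬝ᵥ (J *ᵥ spin σ))))

theorem quad_eq {N : ℕ} (lam : Fin N → ℝ) (U : Matrix (Fin N) (Fin N) ℝ) (s : Fin N → ℝ) :
    s ⬝ᵥ (coupling lam U *ᵥ s) = ∑ i, lam i * (U *ᵥ s) i ^ 2 := by
  unfold coupling
  rw [← Matrix.mulVec_mulVec, ← Matrix.mulVec_mulVec, Matrix.dotProduct_mulVec,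
    Matrix.vecMul_transpose]
  simp only [dotProduct]
  apply Finset.sum_congr rfl
  intro i _
  rw [Matrix.mulVec_diagonal]; ring

theorem norm_eq {N : ℕ} (U : Matrix (Fin N) (Fin N) ℝ) (hU : Uᵀ * U = 1) (s : Fin N → ℝ) :
    ∑ i, (U *ᵥ s) i ^ 2 = ∑ i, s i ^ 2 := by
  have h : (U *ᵥ s) ⬝ᵥ (U *ᵥ s) = s ⬝ᵥ s := by
    calc (U *ᵥ s) ⬝ᵥ (U *ᵥ s) = (s ᵥ* Uᵀ) ⬝ᵥ (U *ᵥ s) := by rw [Matrix.vecMul_transpose]
      _ = s ⬝ᵥ (Uᵀ *ᵥ (U *ᵥ s)) := (Matrix.dotProduct_mulVec _ _ _).symm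
      _ = s ⬝ᵥ ((Uᵀ * U) *ᵥ s) := by rw [Matrix.mulVec_mulVec]
      _ = s ⬝ᵥ s := by rw [hU, Matrix.one_mulVec]
  simp only [dotProduct] at h
  simpa [sq] using h

theorem spin_sq {N : ℕ} (σ : Fin N → ℤˣ) : ∑ i, spin σ i ^ 2 = N := by
  have : ∀ i, spin σ i ^ 2 = 1 := by
    intro i
    unfold spin
    rcases Int.units_eq_one_or (σ i) with h | h <;> rw [h] <;> norm_num
  simp [this]

/-- the sum over spin configurations is positive -/
theorem psum_pos {N : ℕ} (β : ℝ) (J : Matrix (Fin N) (Fin N) ℝ) :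
    0 < ∑ σ : Fin N → ℤˣ, Real.exp (β / 2 * (spin σ ⬝ᵥ (J *ᵥ spin σ))) :=
  Finset.sum_pos (fun _ _ => Real.exp_pos _) Finset.univ_nonempty

/-- one-sided stability of the pressure under a uniform change of the eigenvalues -/
theorem stab_le {N : ℕ} (hN : 0 < N) (β : ℝ) (hβ : 0 ≤ β) (lam lam' : Fin N → ℝ)
    (U : Matrix (Fin N) (Fin N) ℝ) (hU : Uᵀ * U = 1) (ε : ℝ)
    (h : ∀ i, lam i ≤ lam' i + ε) :
    pressure β (coupling lam U) ≤ pressure β (coupling lam' U) + β * ε / 2 := by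
  have hNpos : (0 : ℝ) < N := by exact_mod_cast hN
  have hq : ∀ σ : Fin N → ℤˣ, spin σ ⬝ᵥ (coupling lam U *ᵥ spin σ)
      ≤ spin σ ⬝ᵥ (coupling lam' U *ᵥ spin σ) + ε * N := by
    intro σ
    rw [quad_eq, quad_eq]
    have hn : ∑ i, (U *ᵥ spin σ) i ^ 2 = N := by rw [norm_eq U hU, spin_sq]
    calc ∑ i, lam i * (U *ᵥ spin σ) i ^ 2
        ≤ ∑ i, (lam' i + ε) * (U *ᵥ spin σ) i ^ 2 :=
          sum_le_sum (fun i _ => mul_le_mul_of_nonneg_right (h i) (sq_nonneg _))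
      _ = ∑ i, lam' i * (U *ᵥ spin σ) i ^ 2 + ε * N := by
          simp only [add_mul, sum_add_distrib]
          rw [← mul_sum, hn]
  set S : ℝ := ∑ σ : Fin N → ℤˣ,
    Real.exp (β / 2 * (spin σ ⬝ᵥ (coupling lam U *ᵥ spin σ))) with hS
  set S' : ℝ := ∑ σ : Fin N → ℤˣ,
    Real.exp (β / 2 * (spin σ ⬝ᵥ (coupling lam' U *ᵥ spin σ))) with hS'
  have hSpos : 0 < S := psum_pos β _
  have hS'pos : 0 < S' := psum_pos β _
  have hle : S ≤ Real.exp (β / 2 * (ε * N)) * S' := by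
    rw [hS, hS', mul_sum]
    apply sum_le_sum
    intro σ _
    rw [← Real.exp_add]
    apply Real.exp_le_exp.2
    have := mul_le_mul_of_nonneg_left (hq σ) (by positivity : (0 : ℝ) ≤ β / 2)
    linarith
  have hpow : (0 : ℝ) < (1 / 2 : ℝ) ^ N := by positivity
  have h1 : (1 / 2 : ℝ) ^ N * S ≤ Real.exp (β / 2 * (ε * N)) * ((1 / 2 : ℝ) ^ N * S') := by
    calc (1 / 2 : ℝ) ^ N * S ≤ (1 / 2 : ℝ) ^ N * (Real.exp (β / 2 * (ε * N)) * S') :=
          mul_le_mul_of_nonneg_left hle hpow.le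
      _ = Real.exp (β / 2 * (ε * N)) * ((1 / 2 : ℝ) ^ N * S') := by ring
  have hlog : Real.log ((1 / 2 : ℝ) ^ N * S)
      ≤ β / 2 * (ε * N) + Real.log ((1 / 2 : ℝ) ^ N * S') := by
    have := Real.log_le_log (mul_pos hpow hSpos) h1
    rwa [Real.log_mul (Real.exp_pos _).ne' (mul_pos hpow hS'pos).ne', Real.log_exp] at this
  unfold pressure
  rw [← hS, ← hS']
  have e : β * ε / 2 = (1 / (N : ℝ)) * (β / 2 * (ε * N)) := by field_simp
  rw [e, ← mul_add]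
  apply mul_le_mul_of_nonneg_left _ (by positivity)
  linarith

/-- exact value of the pressure for a constant spectrum -/
theorem const_spec {N : ℕ} (hN : 0 < N) (β c : ℝ) (U : Matrix (Fin N) (Fin N) ℝ)
    (hU : Uᵀ * U = 1) : pressure β (coupling (fun _ => c) U) = β * c / 2 := by
  have hNpos : (0 : ℝ) < N := by exact_mod_cast hN
  have hq : ∀ σ : Fin N → ℤˣ,
      spin σ ⬝ᵥ (coupling (fun _ => c) U *ᵥ spin σ) = c * N := by
    intro σ
    rw [quad_eq, ← mul_sum, norm_eq U hU, spin_sq]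
  have hcard : ((univ : Finset (Fin N → ℤˣ)).card : ℝ) = 2 ^ N := by
    rw [card_univ, Fintype.card_pi]
    simp
  unfold pressure
  simp only [hq]
  rw [sum_const, nsmul_eq_mul, hcard, ← mul_assoc, ← mul_pow]
  norm_num
  field_simp

/-- (1) Stability: for `N ≥ 1`, `β ≥ 0`, a fixed orthogonal `U` and two spectra with
`|lam i - lam' i| ≤ ε` for all `i`, the pressures of `Uᵀ diag(lam) U` and `Uᵀ diag(lam') U`
differ by at most `β ε / 2`.
(2) For a constant spectrum `lam i = c` the pressure equals `β c / 2`.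
(3) Hence, if all eigenvalues `lam N i` converge to `c` uniformly in `i` (the case `μ = δ_c` of
the problem), then `P_N(β) → β c / 2` for every choice of orthogonal matrices `U N`. -/
theorem result :
    (∀ (N : ℕ), 0 < N → ∀ (β : ℝ), 0 ≤ β → ∀ (lam lam' : Fin N → ℝ)
      (U : Matrix (Fin N) (Fin N) ℝ), Uᵀ * U = 1 → ∀ (ε : ℝ),
      (∀ i, |lam i - lam' i| ≤ ε) →
      |pressure β (coupling lam U) - pressure β (coupling lam' U)| ≤ β * ε / 2) ∧
    (∀ (N : ℕ), 0 < N → ∀ (β c : ℝ) (U : Matrix (Fin N) (Fin N) ℝ), Uᵀ * U = 1 →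
      pressure β (coupling (fun _ => c) U) = β * c / 2) ∧
    (∀ (c β : ℝ), 0 ≤ β → ∀ (lam : (N : ℕ) → Fin N → ℝ)
      (U : (N : ℕ) → Matrix (Fin N) (Fin N) ℝ), (∀ N, (U N)ᵀ * U N = 1) →
      ∀ (δ : ℕ → ℝ), Tendsto δ atTop (𝓝 0) → (∀ N i, |lam N i - c| ≤ δ N) →
      Tendsto (fun N => pressure β (coupling (lam N) (U N))) atTop (𝓝 (β * c / 2))) := by
  have stab : ∀ (N : ℕ), 0 < N → ∀ (β : ℝ), 0 ≤ β → ∀ (lam lam' : Fin N → ℝ)
      (U : Matrix (Fin N) (Fin N) ℝ), Uᵀ * U = 1 → ∀ (ε : ℝ),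
      (∀ i, |lam i - lam' i| ≤ ε) →
      |pressure β (coupling lam U) - pressure β (coupling lam' U)| ≤ β * ε / 2 := by
    intro N hN β hβ lam lam' U hU ε h
    have h1 := stab_le hN β hβ lam lam' U hU ε (fun i => by
      have := (abs_le.1 (h i)).2; linarith)
    have h2 := stab_le hN β hβ lam' lam U hU ε (fun i => by
      have := (abs_le.1 (h i)).1; linarith)
    rw [abs_le]
    constructor <;> linarith
  refine ⟨stab, fun N hN β c U hU => const_spec hN β c U hU, ?_⟩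
  intro c β hβ lam U hU δ hδ hlam
  have hb : ∀ N, 0 < N →
      |pressure β (coupling (lam N) (U N)) - β * c / 2| ≤ β * δ N / 2 := by
    intro N hN
    have := stab N hN β hβ (lam N) (fun _ => c) (U N) (hU N) (δ N) (hlam N)
    rwa [const_spec hN β c (U N) (hU N)] at this
  have hlim : Tendsto (fun N => β * δ N / 2) atTop (𝓝 0) := by
    have := (hδ.const_mul β).div_const 2
    simpa using this
  rw [tendsto_iff_dist_tendsto_zero]
  refine squeeze_zero' (Eventually.of_forall (fun N => dist_nonneg)) ?_ hlim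
  filter_upwards [eventually_gt_atTop 0] with N hN
  rw [Real.dist_eq]
  exact hb N hN

end Vale.Agent.Results.P166.A_DiracSpectrum
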